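import Vale.Agent.P088.R2.H341.C.En

/-!
# P088, stage 3, zone C, row A0: region 0 (`N / E` bounded from below)
-/

open MeasureTheory Set
open scoped ContDiff

noncomputable section

namespace Vale.Agent.P088.R2.H341.C

open Vale.Agent.P088.LR Vale.Agent.P088.HY
open Vale.Agent.P088.R2.H961.GW
open Vale.Agent.P088.R2.H644 Vale.Agent.P088.R2.H644.Ch
open Vale.Agent.P088.R2.H205.C

variable {n : ℕ} {W f g χ : VV n → ℝ}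

/-! ### The weight -/

theorem sm_der {φ φ₁ : ℝ → ℝ} (h : ContDiff ℝ ∞ φ) (h1 : ∀ s, HasDerivAt φ (φ₁ s) s) :
    ContDiff ℝ ∞ φ₁ := by
  have e : φ₁ = deriv φ := funext fun s => (h1 s).deriv.symm
  rw [e]
  exact ((contDiff_infty_iff_deriv (𝕜 := ℝ)).1 h).2

theorem sm_ht (e : Fin n) : ContDiff ℝ ∞ (ht e : VV n → ℝ) := (contDiff_fst' e).add (contDiff_snd' e)

theorem sm_Wu {φ Φ : ℝ → ℝ} (e : Fin n) (hφ : ContDiff ℝ ∞ φ) (hΦ : ContDiff ℝ ∞ Φ) :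
    ContDiff ℝ ∞ (Wu e φ Φ : VV n → ℝ) :=
  (hφ.comp (sm_ht e)).add ((contDiff_Ee e 1).mul (contDiff_rad hΦ))

/-- A unit direction: `v = x_e` or `v = y_e`. -/
structure Un (e : Fin n) (v : VV n) (s : ℝ) : Prop where
  s1 : s ^ 2 = 1
  hv : v.1 e + v.2 e = 1
  hd : v.1 e - v.2 e = s
  hq : ∀ z, dd v qq z = s * (2 * qv e z)

theorem un_x (e : Fin n) : Un e (Pi.single e 1, 0) 1 where
  s1 := by norm_num
  hv := by simp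
  hd := by simp
  hq z := by rw [← dx_eq, dx_qq]; ring

theorem un_y (e : Fin n) : Un e (0, Pi.single e 1) (-1) where
  s1 := by norm_num
  hv := by simp
  hd := by simp
  hq z := by rw [← dy_eq, dy_qq]; ring

section weight

variable {e : Fin n} {v : VV n} {s : ℝ} {φ φ₁ φ₂ Φ Φ₁ Φ₂ : ℝ → ℝ}

theorem hd_ht (h : Un e v s) (z : VV n) : HD v (ht e) 1 z := by
  have := (HD.fst v z e).add (HD.snd v z e)
  rw [h.hv] at this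
  exact this

theorem dd_Wu (h : Un e v s) (hφ : ∀ s, HasDerivAt φ (φ₁ s) s) (hΦ : ∀ s, HasDerivAt Φ (Φ₁ s) s)
    (z : VV n) : dd v (Wu e φ Φ) z =
      φ₁ (ht e z) + Ee e 1 z * (Φ (qq z) + Φ₁ (qq z) * (s * (2 * qv e z))) := by
  have h1 := ((hd_ht h z).comp (hφ _)).add ((HD.Ee v z e 1).mul (HD.rad (hΦ (qq z))))
  refine h1.e.trans ?_
  rw [h.hq, h.hv]
  ring

theorem dd2_Wu (h : Un e v s) (hφ : ∀ s, HasDerivAt φ (φ₁ s) s)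
    (hφ1 : ∀ s, HasDerivAt φ₁ (φ₂ s) s) (hΦ : ∀ s, HasDerivAt Φ (Φ₁ s) s)
    (hΦ1 : ∀ s, HasDerivAt Φ₁ (Φ₂ s) s) (z : VV n) : dd v (dd v (Wu e φ Φ)) z =
      φ₂ (ht e z) + Ee e 1 z * (Φ (qq z) + 2 * Φ₁ (qq z) * (s * (2 * qv e z)) +
        Φ₂ (qq z) * (2 * qv e z) ^ 2 + 2 * Φ₁ (qq z)) := by
  have e1 : dd v (Wu e φ Φ) = fun z => φ₁ (ht e z) + Ee e 1 z * (Φ (qq z) +
      Φ₁ (qq z) * (s * (2 * qv e z))) := funext (dd_Wu h hφ hΦ)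
  rw [e1]
  have h1 := ((hd_ht h z).comp (hφ1 _)).add ((HD.Ee v z e 1).mul ((HD.rad (hΦ (qq z))).add
    ((HD.rad (hΦ1 (qq z))).mul (((HD.qv v z e).cmul 2).cmul s))))
  refine h1.e.trans ?_
  rw [h.hq, h.hv, h.hd]
  linear_combination (Ee e 1 z * (Φ₂ (qq z) * (2 * qv e z) ^ 2 + 2 * Φ₁ (qq z))) * h.s1

end weight

theorem qv_sq_le (e : Fin n) (z : VV n) : qv e z ^ 2 ≤ qq z := by
  rw [qq_eq]
  exact Finset.single_le_sum (f := fun j => qv j z ^ 2) (fun j _ => sq_nonneg _)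
    (Finset.mem_univ e)

/-- The slopes of the weight near the diagonal. -/
theorem slopes {Cs c₀ a₁ N K E q D : ℝ} {Φ Φ₁ Φ₂ Φ₃ Φ₄ : ℝ → ℝ}
    (hf : Pf Cs Φ Φ₁ Φ₂ Φ₃ Φ₄) (hCs : 0 < Cs) (hc : 0 < c₀) (hc2 : c₀ ≤ 1 / 2)
    (c1 : c₀ * (4 * (1 + 2 * Cs)) ≤ a₁) (c2 : c₀ * (16 * (1 + 2 * Cs)) ≤ 1)
    (hE : 0 < E) (hK : 0 < K) (hN : a₁ * E ≤ N) (q0 : 0 ≤ q) (q1 : q ≤ 4 * c₀ ^ 2)
    (hD : D ^ 2 ≤ 4 * q) :
    N / 2 ≤ N + E * (Φ q + Φ₁ q * D) ∧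
      0 ≤ K + E * (Φ q + 2 * Φ₁ q * D + Φ₂ q * D ^ 2 + 2 * Φ₁ q) := by
  have q2 : q ≤ 2 * c₀ := by nlinarith
  have q3 : q ≤ 1 := by linarith
  have p0 := (hf.ps q q0 q3).1
  have p1 := abs_le.1 (hf.b1 q q0 q3)
  have p2 := abs_le.1 (hf.b2 q q0 q3).1
  have d1 : |D| ≤ 4 * c₀ := abs_le_of_sq_le_sq (by linarith) (by linarith)
  have f1 : |Φ₁ q| ≤ 1 / 2 + Cs := by
    rw [abs_le]
    have : Cs * q ≤ Cs := by nlinarith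
    constructor <;> linarith
  have f2 : |Φ₁ q * D| ≤ (1 / 2 + Cs) * (4 * c₀) := by
    rw [abs_mul]
    exact mul_le_mul f1 d1 (abs_nonneg _) (by linarith)
  have f3 := abs_le.1 f2
  have hEc : E * ((1 / 2 + Cs) * (4 * c₀)) ≤ N / 2 := by
    have : E * (c₀ * (4 * (1 + 2 * Cs))) ≤ E * a₁ := mul_le_mul_of_nonneg_left c1 hE.le
    nlinarith
  constructor
  · have : E * (-((1 / 2 + Cs) * (4 * c₀))) ≤ E * (Φ q + Φ₁ q * D) :=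
      mul_le_mul_of_nonneg_left (by linarith) hE.le
    linarith
  · have g1 : Φ₂ q * D ^ 2 ≥ -(Cs * (4 * q)) := by
      have : -(Cs * D ^ 2) ≤ Φ₂ q * D ^ 2 := by nlinarith [sq_nonneg D]
      nlinarith
    have g2 : 2 * Φ₁ q ≥ 1 - 2 * (Cs * q) := by linarith
    have g3 : Cs * q ≤ Cs * (2 * c₀) := mul_le_mul_of_nonneg_left q2 hCs.le
    have g4 : 0 ≤ Φ q + 2 * Φ₁ q * D + Φ₂ q * D ^ 2 + 2 * Φ₁ q := by nlinarith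
    have := mul_nonneg hE.le g4
    linarith

/-! ### The row -/

theorem sum_le_st {a₀ B a₁ C₁ Cp M S E K N F : ℝ} (ha0 : 0 < a₀) (hB : 0 < B) (ha1 : 0 < a₁)
    (hC1 : 1 ≤ C₁) (hCp : 0 < Cp) (hE : 0 < E) (hF : 0 ≤ F) (k0 : a₀ * E ≤ K) (k1 : K ≤ B * E)
    (n0 : a₁ * E ≤ N) (n1 : C₁ ≤ N)
    (h : M - Cp * (E + E ^ 2 + K + K ^ 2 + E ^ 2 / K) * F ≤ S) :
    M - Cp * ((1 + B + 1 / a₀) + (1 + B ^ 2) / a₁) / C₁ * (E * N ^ 2 * F) ≤ S := by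
  have hK : 0 < K := lt_of_lt_of_le (by positivity) k0
  have hC : 0 < C₁ := by linarith
  have hN : 0 < N := by linarith
  have e1 : E ^ 2 / K ≤ E / a₀ := by
    rw [div_le_div_iff₀ hK ha0]
    nlinarith
  have e2 : K ^ 2 ≤ B ^ 2 * E ^ 2 := by
    rw [← mul_pow]
    exact pow_le_pow_left₀ hK.le k1 2
  have e3 : E ≤ E * N ^ 2 / C₁ := by
    rw [le_div_iff₀ hC]
    have : C₁ ≤ N ^ 2 := by nlinarith
    exact mul_le_mul_of_nonneg_left this hE.le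
  have e4 : E ^ 2 ≤ E * N ^ 2 / (a₁ * C₁) := by
    rw [le_div_iff₀ (by positivity)]
    have h1 : E * a₁ * C₁ ≤ N * N :=
      mul_le_mul (by linarith) n1 hC.le hN.le
    have := mul_le_mul_of_nonneg_left h1 hE.le
    nlinarith
  have e5 : E + E ^ 2 + K + K ^ 2 + E ^ 2 / K ≤
      (1 + B + 1 / a₀) * (E * N ^ 2 / C₁) + (1 + B ^ 2) * (E * N ^ 2 / (a₁ * C₁)) := by
    have h1 : E + E ^ 2 + K + K ^ 2 + E ^ 2 / K ≤ (1 + B + 1 / a₀) * E + (1 + B ^ 2) * E ^ 2 := by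
      have : E / a₀ = 1 / a₀ * E := by ring
      nlinarith
    refine h1.trans (add_le_add (mul_le_mul_of_nonneg_left e3 (by positivity))
      (mul_le_mul_of_nonneg_left e4 (by positivity)))
  have e6 : Cp * (E + E ^ 2 + K + K ^ 2 + E ^ 2 / K) * F ≤
      Cp * ((1 + B + 1 / a₀) * (E * N ^ 2 / C₁) + (1 + B ^ 2) * (E * N ^ 2 / (a₁ * C₁))) * F :=
    mul_le_mul_of_nonneg_right (mul_le_mul_of_nonneg_left e5 hCp.le) hF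
  have e7 : Cp * ((1 + B + 1 / a₀) * (E * N ^ 2 / C₁) +
      (1 + B ^ 2) * (E * N ^ 2 / (a₁ * C₁))) * F =
      Cp * ((1 + B + 1 / a₀) + (1 + B ^ 2) / a₁) / C₁ * (E * N ^ 2 * F) := by
    field_simp
  linarith

/-- The energy density at a point. -/
theorem pt_en {a₀ K E U V Y P : ℝ} (ha0 : 0 < a₀) (hE : 0 < E) (k0 : a₀ * E ≤ K)
    (hY : (U - V) ^ 2 ≤ Y) (hP : P = (U + V) / 2) :
    E * (U ^ 2 + V ^ 2) ≤ (2 / a₀ + 1 / 2) * (K * P ^ 2 + E * Y) := by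
  have hid : U ^ 2 + V ^ 2 = 2 * P ^ 2 + (U - V) ^ 2 / 2 := by
    rw [hP]; ring
  have p0 := sq_nonneg P
  have p1 : 0 ≤ Y := (sq_nonneg _).trans hY
  have hK : 0 < K := lt_of_lt_of_le (by positivity) k0
  have p2 : E * (2 * P ^ 2) ≤ 2 / a₀ * (K * P ^ 2) := by
    have : E ≤ K / a₀ := by rw [le_div_iff₀ ha0]; linarith
    have := mul_le_mul_of_nonneg_right this (mul_nonneg zero_le_two p0)
    refine this.trans (le_of_eq ?_)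
    ring
  have p3 : E * ((U - V) ^ 2 / 2) ≤ 1 / 2 * (E * Y) := by
    have := mul_le_mul_of_nonneg_left hY hE.le
    linarith
  rw [hid, mul_add]
  have q1 : 0 ≤ 2 / a₀ * (E * Y) := by positivity
  have q2 : 0 ≤ 1 / 2 * (K * P ^ 2) := by positivity
  linarith

/-- The cutoff density at a point. -/
theorem pt_cut {E a b Q R F G : ℝ} (hE : 0 < E) (h1 : ((a - b) / 2) ^ 2 ≤ Q)
    (h2 : (a + b) ^ 2 ≤ R) :
    E * a ^ 2 * F ^ 2 + E * b ^ 2 * G ^ 2 ≤ 2 * (E * (Q + R) * (F ^ 2 + G ^ 2)) := by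
  have h3 : a ^ 2 ≤ 2 * (Q + R) := by
    nlinarith [sq_nonneg (a - b), sq_nonneg (a + b), sq_nonneg ((a - b) / 2 - (a + b) / 2)]
  have h4 : b ^ 2 ≤ 2 * (Q + R) := by
    nlinarith [sq_nonneg (a - b), sq_nonneg (a + b), sq_nonneg ((a - b) / 2 + (a + b) / 2)]
  have h5 : E * a ^ 2 * F ^ 2 ≤ E * (2 * (Q + R)) * F ^ 2 :=
    mul_le_mul_of_nonneg_right (mul_le_mul_of_nonneg_left h3 hE.le) (sq_nonneg _)
  have h6 : E * b ^ 2 * G ^ 2 ≤ E * (2 * (Q + R)) * G ^ 2 :=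
    mul_le_mul_of_nonneg_right (mul_le_mul_of_nonneg_left h4 hE.le) (sq_nonneg _)
  refine (add_le_add h5 h6).trans (le_of_eq ?_)
  ring

/-- The last step. -/
theorem fin_ar {ε L J1 J2 J3 J4 J5 : ℝ} (hε : 0 < ε) (hL : 0 < L) (h1 : ε * (1 + 32 * L) ≤ 1)
    (j1 : 0 ≤ J1) (j3 : 0 ≤ J3) (j5 : 0 ≤ J5) (kA : J2 ≤ 8 * (L * J1) + 32 * J5)
    (k4 : J1 - ε * J2 ≤ J4) :
    1 / (4 + 32 * L) * (J1 + J2 + J3) ≤ J3 + J4 + 64 * J5 := by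
  rw [one_div, inv_mul_le_iff₀ (by positivity)]
  have r1 : ε * J2 ≤ ε * (8 * (L * J1) + 32 * J5) := mul_le_mul_of_nonneg_left kA hε.le
  have r2 : ε * (32 * L) ≤ 1 := by linarith
  have r0 : 0 ≤ ε * (32 * L) := by positivity
  have r3 : ε ≤ 1 := by linarith
  have r4 : ε * (32 * L) * J1 ≤ 1 * J1 := mul_le_mul_of_nonneg_right r2 j1
  have r5 : ε * J5 ≤ 1 * J5 := mul_le_mul_of_nonneg_right r3 j5
  have r6 : 3 / 4 * J1 - 32 * J5 ≤ J4 := by linarith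
  have r7 : 0 ≤ J3 + J4 + 64 * J5 - (J3 + (3 / 4 * J1 + 32 * J5)) := by linarith
  have r8 : 0 ≤ (4 + 32 * L) * (J3 + J4 + 64 * J5 - (J3 + (3 / 4 * J1 + 32 * J5))) :=
    mul_nonneg (by positivity) r7
  have r9 : 0 ≤ L * J1 := mul_nonneg hL.le j1
  have r10 : 0 ≤ L * J3 := mul_nonneg hL.le j3
  have r11 : 0 ≤ L * J5 := mul_nonneg hL.le j5
  linarith

/-- The sets of the row. -/
def Cz (e : Fin n) (c₀ a₀ B a₁ C₁ : ℝ) (φ₁ φ₂ : ℝ → ℝ) (I : Set ℝ) (χ : VV n → ℝ) : Prop :=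
  ∀ z ∈ tsupport χ, z ∈ Zn e c₀ I ∧ a₀ * Ee e 1 z ≤ φ₂ (ht e z) ∧
    φ₂ (ht e z) ≤ B * Ee e 1 z ∧ a₁ * Ee e 1 z ≤ φ₁ (ht e z) ∧ C₁ ≤ φ₁ (ht e z)

section te

variable {e : Fin n} {K N : VV n → ℝ}

theorem te1 (hW : ContDiff ℝ ∞ W) (hf : Te univ f) (hg : Te univ g) (hχ : ContDiff ℝ ∞ χ)
    (hK : ContDiff ℝ ∞ K) : Te univ fun z => χ z ^ 2 * (K z * pe e W f g z ^ 2 +
      Ee e 1 z * s2 (Yv W f g z)) :=
  te_mulL ((te_mulL ((te_pe hW hf hg e).sq isOpen_univ) hK).add isOpen_univ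
    (te_mulL (te_s2Yv hW hf hg) (contDiff_Ee e 1))) (hχ.pow 2)

theorem te2 (hf : Te univ f) (hχ : ContDiff ℝ ∞ χ) (hN : ContDiff ℝ ∞ N) :
    Te univ fun z => χ z ^ 2 * (Ee e 1 z * N z ^ 2 * f z ^ 2) :=
  te_mulL (te_mulL (hf.sq isOpen_univ) ((contDiff_Ee e 1).mul (hN.pow 2))) (hχ.pow 2)

theorem te22 (hf : Te univ f) (hg : Te univ g) (hχ : ContDiff ℝ ∞ χ) (hN : ContDiff ℝ ∞ N) :
    Te univ fun z => χ z ^ 2 * (Ee e 1 z * N z ^ 2 * (f z ^ 2 + g z ^ 2)) :=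
  te_mulL (te_mulL ((hf.sq isOpen_univ).add isOpen_univ (hg.sq isOpen_univ))
    ((contDiff_Ee e 1).mul (hN.pow 2))) (hχ.pow 2)

theorem te5 (hf : Te univ f) (hg : Te univ g) (hχ : ContDiff ℝ ∞ χ) :
    Te univ fun z => Ee e 1 z * (gq χ z + gp χ z) * (f z ^ 2 + g z ^ 2) := by
  have sgq : ContDiff ℝ ∞ (gq χ) := ContDiff.sum fun i _ =>
    (((sm_dd hχ (Pi.single i 1, 0)).sub (sm_dd hχ (0, Pi.single i 1))).div_const 2).pow 2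
  have sgp : ContDiff ℝ ∞ (gp χ) := ContDiff.sum fun i _ =>
    ((sm_dd hχ (Pi.single i 1, 0)).add (sm_dd hχ (0, Pi.single i 1))).pow 2
  exact te_mulL ((hf.sq isOpen_univ).add isOpen_univ (hg.sq isOpen_univ))
    ((contDiff_Ee e 1).mul (sgq.add sgp))

end te

section main

variable {e : Fin n} {Cs Cd c₀ a₀ B a₁ C₁ : ℝ} {Φ Φ₁ Φ₂ Φ₃ Φ₄ φ φ₁ φ₂ φ₃ φ₄ : ℝ → ℝ} {I : Set ℝ}

theorem slp (hf' : Pf Cs Φ Φ₁ Φ₂ Φ₃ Φ₄) (hs : Sp Cd φ φ₁ φ₂ φ₃ φ₄ I) (hCs : 0 < Cs) (hc0 : 0 < c₀)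
    (m2 : c₀ * (4 * (1 + 2 * Cs)) ≤ a₁) (m3 : c₀ * (16 * (1 + 2 * Cs)) ≤ 1)
    (m4 : c₀ ≤ 1 / 2) (hz : Cz e c₀ a₀ B a₁ C₁ φ₁ φ₂ I χ) {v : VV n} {s : ℝ} (hu : Un e v s)
    (z : VV n) (hz' : z ∈ tsupport χ) :
    (0 ≤ φ₁ (ht e z) ∧ φ₁ (ht e z) ≤ 2 * dd v (Wu e φ Φ) z) ∧ 0 ≤ dd v (dd v (Wu e φ Φ)) z := by
  obtain ⟨⟨zi, zq⟩, z1, z2, z3, z4⟩ := hz z hz'
  have hEp := Ee_pos e 1 z
  have hK := hs.kp _ zi
  have hN := hs.np _ zi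
  have hD : (s * (2 * qv e z)) ^ 2 ≤ 4 * qq z := by
    rw [mul_pow, hu.s1]
    nlinarith [qv_sq_le e z]
  obtain ⟨r1, r2⟩ := slopes (K := φ₂ (ht e z)) hf' hCs hc0 m4 m2 m3 hEp hK z3
    (qq_nonneg z) zq hD
  rw [mul_pow, hu.s1, one_mul] at r2
  rw [dd_Wu hu hs.d1 hf'.d1, dd2_Wu hu hs.d1 hs.d2 hf'.d1 hf'.d2]
  exact ⟨⟨hN.le, by linarith⟩, r2⟩

/-- The slots by the margins. -/
theorem k6 (hs : Sp Cd φ φ₁ φ₂ φ₃ φ₄ I) (hW : ContDiff ℝ ∞ W) (hf : Te univ f) (hg : Te univ g)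
    (hχ : ContDiff ℝ ∞ χ) (ha0 : 0 < a₀) (hz : Cz e c₀ a₀ B a₁ C₁ φ₁ φ₂ I χ) :
    (∫ z, χ z ^ 2 * (Ee e 1 z * Uu W f z e ^ 2)) +
      (∫ z, χ z ^ 2 * (Ee e 1 z * Uv W g z e ^ 2)) ≤ (2 / a₀ + 1 / 2) *
    ∫ z, χ z ^ 2 * (φ₂ (ht e z) * pe e W f g z ^ 2 + Ee e 1 z * s2 (Yv W f g z)) := by
  have hO := isOpen_univ (X := VV n)
  have sE : ContDiff ℝ ∞ (Ee e 1 : VV n → ℝ) := contDiff_Ee e 1
  have sK : ContDiff ℝ ∞ fun z : VV n => φ₂ (ht e z) :=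
    (sm_der (sm_der hs.sm hs.d1) hs.d2).comp (sm_ht e)
  have T1 := te1 (e := e) hW hf hg hχ sK
  have T6 : Te univ fun z => χ z ^ 2 * (Ee e 1 z * Uu W f z e ^ 2) :=
    te_mulL (te_mulL ((te_Uu hW hf e).sq hO) sE) (hχ.pow 2)
  have T7 : Te univ fun z => χ z ^ 2 * (Ee e 1 z * Uv W g z e ^ 2) :=
    te_mulL (te_mulL ((te_Uv hW hg e).sq hO) sE) (hχ.pow 2)
  rw [← integral_add (te_int0 T6) (te_int0 T7), ← integral_const_mul]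
  refine integral_mono (te_int0 (T6.add hO T7)) (te_int0 (T1.cmul hO _)) fun z => ?_
  show χ z ^ 2 * (Ee e 1 z * Uu W f z e ^ 2) + χ z ^ 2 * (Ee e 1 z * Uv W g z e ^ 2) ≤
    (2 / a₀ + 1 / 2) * (χ z ^ 2 * (φ₂ (ht e z) * pe e W f g z ^ 2 +
      Ee e 1 z * s2 (Yv W f g z)))
  by_cases hz' : z ∈ tsupport χ
  · obtain ⟨⟨zi, zq⟩, z1, z2, z3, z4⟩ := hz z hz'
    have hEp := Ee_pos e 1 z
    have hY : (Uu W f z e - Uv W g z e) ^ 2 ≤ s2 (Yv W f g z) :=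
      Finset.single_le_sum (f := fun j => (Yv W f g z j) ^ 2) (fun j _ => sq_nonneg _)
        (Finset.mem_univ e)
    have p6 := pt_en ha0 hEp z1 hY (P := pe e W f g z) rfl
    have := mul_le_mul_of_nonneg_left p6 (sq_nonneg (χ z))
    linarith
  · have c0 : χ z = 0 := image_eq_zero_of_notMem_tsupport hz'
    rw [c0]
    simp

/-- The cutoffs. -/
theorem k8 (hf : Te univ f) (hg : Te univ g) (hχ : ContDiff ℝ ∞ χ) :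
    (∫ z, Ee e 1 z * dx e χ z ^ 2 * f z ^ 2) + (∫ z, Ee e 1 z * dy e χ z ^ 2 * g z ^ 2) ≤
    2 * ∫ z, Ee e 1 z * (gq χ z + gp χ z) * (f z ^ 2 + g z ^ 2) := by
  have hO := isOpen_univ (X := VV n)
  have sE : ContDiff ℝ ∞ (Ee e 1 : VV n → ℝ) := contDiff_Ee e 1
  have T5 := te5 (e := e) hf hg hχ
  have T8 : Te univ fun z => Ee e 1 z * dx e χ z ^ 2 * f z ^ 2 :=
    te_mulL (hf.sq hO) (sE.mul ((sm_dd hχ (Pi.single e 1, 0)).pow 2))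
  have T9 : Te univ fun z => Ee e 1 z * dy e χ z ^ 2 * g z ^ 2 :=
    te_mulL (hg.sq hO) (sE.mul ((sm_dd hχ (0, Pi.single e 1)).pow 2))
  rw [← integral_add (te_int0 T8) (te_int0 T9), ← integral_const_mul]
  refine integral_mono (te_int0 (T8.add hO T9)) (te_int0 (T5.cmul hO 2)) fun z => ?_
  show Ee e 1 z * dx e χ z ^ 2 * f z ^ 2 + Ee e 1 z * dy e χ z ^ 2 * g z ^ 2 ≤
    2 * (Ee e 1 z * (gq χ z + gp χ z) * (f z ^ 2 + g z ^ 2))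
  have h1 : ((dx e χ z - dy e χ z) / 2) ^ 2 ≤ gq χ z :=
    Finset.single_le_sum (f := fun j => (dq j χ z) ^ 2) (fun j _ => sq_nonneg _)
      (Finset.mem_univ e)
  have h2 : (dx e χ z + dy e χ z) ^ 2 ≤ gp χ z :=
    Finset.single_le_sum (f := fun j => (dp j χ z) ^ 2) (fun j _ => sq_nonneg _)
      (Finset.mem_univ e)
  exact pt_cut (Ee_pos e 1 z) h1 h2

/-- The energy of both slots. -/
theorem kA (hf' : Pf Cs Φ Φ₁ Φ₂ Φ₃ Φ₄) (hs : Sp Cd φ φ₁ φ₂ φ₃ φ₄ I) (hCs : 0 < Cs) (hc0 : 0 < c₀)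
    (m2 : c₀ * (4 * (1 + 2 * Cs)) ≤ a₁) (m3 : c₀ * (16 * (1 + 2 * Cs)) ≤ 1) (m4 : c₀ ≤ 1 / 2)
    (hf : Te univ f) (hg : Te univ g) (hχ : ContDiff ℝ ∞ χ) (ha0 : 0 < a₀)
    (hz : Cz e c₀ a₀ B a₁ C₁ φ₁ φ₂ I χ) :
    (∫ z, χ z ^ 2 * (Ee e 1 z * φ₁ (ht e z) ^ 2 * (f z ^ 2 + g z ^ 2))) ≤
    8 * ((2 / a₀ + 1 / 2) * ∫ z, χ z ^ 2 * (φ₂ (ht e z) * pe e (Wu e φ Φ) f g z ^ 2 +
      Ee e 1 z * s2 (Yv (Wu e φ Φ) f g z))) +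
    32 * ∫ z, Ee e 1 z * (gq χ z + gp χ z) * (f z ^ 2 + g z ^ 2) := by
  have hW : ContDiff ℝ ∞ (Wu e φ Φ : VV n → ℝ) := sm_Wu e hs.sm hf'.sm
  have sN : ContDiff ℝ ∞ fun z : VV n => φ₁ (ht e z) := (sm_der hs.sm hs.d1).comp (sm_ht e)
  have sl := fun {v : VV n} {s : ℝ} (hu : Un e v s) => slp hf' hs hCs hc0 m2 m3 m4 hz hu
  have EX := energy (un_x e).hv hW hχ hf sN (fun z h => (sl (un_x e) z h).1)
    (fun z h => (sl (un_x e) z h).2)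
  have EY := energy (un_y e).hv hW hχ hg sN (fun z h => (sl (un_y e) z h).1)
    (fun z h => (sl (un_y e) z h).2)
  change _ ≤ 8 * (∫ z, χ z ^ 2 * (Ee e 1 z * Uu (Wu e φ Φ) f z e ^ 2)) +
    16 * ∫ z, Ee e 1 z * dx e χ z ^ 2 * f z ^ 2 at EX
  change _ ≤ 8 * (∫ z, χ z ^ 2 * (Ee e 1 z * Uv (Wu e φ Φ) g z e ^ 2)) +
    16 * ∫ z, Ee e 1 z * dy e χ z ^ 2 * g z ^ 2 at EY
  have h6 := k6 hs hW hf hg hχ ha0 hz
  have h8 := k8 (e := e) hf hg hχ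
  have k2 : (∫ z, χ z ^ 2 * (Ee e 1 z * φ₁ (ht e z) ^ 2 * (f z ^ 2 + g z ^ 2))) =
      (∫ z, χ z ^ 2 * (Ee e 1 z * φ₁ (ht e z) ^ 2 * f z ^ 2)) +
      ∫ z, χ z ^ 2 * (Ee e 1 z * φ₁ (ht e z) ^ 2 * g z ^ 2) := by
    rw [← integral_add (te_int0 (te2 hf hχ sN)) (te_int0 (te2 hg hχ sN))]
    refine integral_congr_ae (Filter.Eventually.of_forall fun z => ?_)
    show χ z ^ 2 * (Ee e 1 z * φ₁ (ht e z) ^ 2 * (f z ^ 2 + g z ^ 2)) = _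
    ring
  linarith

/-- The star density at a point. -/
theorem pt_st {cp cc Cp : ℝ} (ha0 : 0 < a₀) (hB : 0 < B)
    (ha1 : 0 < a₁) (hC1 : 1 ≤ C₁) (hCp : 0 < Cp) (hcc : 0 < cc) (hc0 : 0 < c₀) (m1 : c₀ ≤ cp)
    (m4 : c₀ ≤ 1 / 2) (m5 : c₀ ≤ cc * a₀ / 4) {z : VV n} {F M S : ℝ} (hF : 0 ≤ F)
    (hz : z ∈ Zn e c₀ I ∧ a₀ * Ee e 1 z ≤ φ₂ (ht e z) ∧
      φ₂ (ht e z) ≤ B * Ee e 1 z ∧ a₁ * Ee e 1 z ≤ φ₁ (ht e z) ∧ C₁ ≤ φ₁ (ht e z))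
    (hp : z ∈ Zn e cp I → tt e z ≤ cc * φ₂ (ht e z) → M - Cp * (Ee e 1 z + Ee e 1 z ^ 2 +
      φ₂ (ht e z) + φ₂ (ht e z) ^ 2 + Ee e 1 z ^ 2 / φ₂ (ht e z)) * F ≤ S) :
    M - Cp * ((1 + B + 1 / a₀) + (1 + B ^ 2) / a₁) / C₁ *
      (Ee e 1 z * φ₁ (ht e z) ^ 2 * F) ≤ S := by
  obtain ⟨⟨zi, zq⟩, z1, z2, z3, z4⟩ := hz
  have hEp := Ee_pos e 1 z
  have ztn : tt e z ≤ cc * φ₂ (ht e z) := by
    unfold tt
    have h1 : qq z ≤ cc * a₀ := by nlinarith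
    have h2 : Ee e 1 z * qq z ≤ Ee e 1 z * (cc * a₀) := mul_le_mul_of_nonneg_left h1 hEp.le
    have h3 : cc * (a₀ * Ee e 1 z) ≤ cc * φ₂ (ht e z) := mul_le_mul_of_nonneg_left z1 hcc.le
    linarith
  have zZ : z ∈ Zn e cp I := ⟨zi, zq.trans (by nlinarith)⟩
  exact sum_le_st ha0 hB ha1 hC1 hCp hEp hF z1 z2 z3 z4 (hp zZ ztn)

/-- The star density. -/
theorem k4 {cp cc Cp : ℝ} (hf' : Pf Cs Φ Φ₁ Φ₂ Φ₃ Φ₄) (hs : Sp Cd φ φ₁ φ₂ φ₃ φ₄ I) (ha0 : 0 < a₀)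
    (hB : 0 < B) (ha1 : 0 < a₁) (hC1 : 1 ≤ C₁) (hCp : 0 < Cp) (hcc : 0 < cc) (hc0 : 0 < c₀)
    (m1 : c₀ ≤ cp) (m4 : c₀ ≤ 1 / 2) (m5 : c₀ ≤ cc * a₀ / 4)
    (hf : Te univ f) (hg : Te univ g) (hχ : ContDiff ℝ ∞ χ)
    (hz : Cz e c₀ a₀ B a₁ C₁ φ₁ φ₂ I χ)
    (hp : ∀ z ∈ Zn e cp I, tt e z ≤ cc * φ₂ (ht e z) →
      Ee e 1 z * s2 (Yv (Wu e φ Φ) f g z) + φ₂ (ht e z) * pe e (Wu e φ Φ) f g z ^ 2 -
      Cp * (Ee e 1 z + Ee e 1 z ^ 2 + φ₂ (ht e z) + φ₂ (ht e z) ^ 2 +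
        Ee e 1 z ^ 2 / φ₂ (ht e z)) * (f z ^ 2 + g z ^ 2) ≤ st (Wu e φ Φ) f g z) :
    (∫ z, χ z ^ 2 * (φ₂ (ht e z) * pe e (Wu e φ Φ) f g z ^ 2 +
      Ee e 1 z * s2 (Yv (Wu e φ Φ) f g z))) -
    Cp * ((1 + B + 1 / a₀) + (1 + B ^ 2) / a₁) / C₁ *
      (∫ z, χ z ^ 2 * (Ee e 1 z * φ₁ (ht e z) ^ 2 * (f z ^ 2 + g z ^ 2))) ≤
    ∫ z, χ z ^ 2 * st (Wu e φ Φ) f g z := by
  have hO := isOpen_univ (X := VV n)
  have hW : ContDiff ℝ ∞ (Wu e φ Φ : VV n → ℝ) := sm_Wu e hs.sm hf'.sm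
  have s1 := sm_der hs.sm hs.d1
  have sN : ContDiff ℝ ∞ fun z : VV n => φ₁ (ht e z) := s1.comp (sm_ht e)
  have sK : ContDiff ℝ ∞ fun z : VV n => φ₂ (ht e z) := (sm_der s1 hs.d2).comp (sm_ht e)
  have T1 := te1 (e := e) hW hf hg hχ sK
  have T2 := te22 (e := e) hf hg hχ sN
  have T4 : Te univ fun z => χ z ^ 2 * st (Wu e φ Φ) f g z :=
    te_mulL (te_st hW hf hg) (hχ.pow 2)
  rw [← integral_const_mul, ← integral_sub (te_int0 T1) (te_int0 (T2.cmul hO _))]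
  refine integral_mono (te_int0 (T1.sub hO (T2.cmul hO _))) (te_int0 T4) fun z => ?_
  show χ z ^ 2 * (φ₂ (ht e z) * pe e (Wu e φ Φ) f g z ^ 2 +
      Ee e 1 z * s2 (Yv (Wu e φ Φ) f g z)) -
    Cp * ((1 + B + 1 / a₀) + (1 + B ^ 2) / a₁) / C₁ *
      (χ z ^ 2 * (Ee e 1 z * φ₁ (ht e z) ^ 2 * (f z ^ 2 + g z ^ 2))) ≤
    χ z ^ 2 * st (Wu e φ Φ) f g z
  by_cases hz' : z ∈ tsupport χ
  · have hF : 0 ≤ f z ^ 2 + g z ^ 2 := by positivity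
    have hq := pt_st ha0 hB ha1 hC1 hCp hcc hc0 m1 m4 m5 hF (hz z hz') (hp z)
    have := mul_le_mul_of_nonneg_left hq (sq_nonneg (χ z))
    refine le_trans (le_of_eq ?_) this
    ring
  · have c0 : χ z = 0 := image_eq_zero_of_notMem_tsupport hz'
    rw [c0]
    simp

/-- The left side is the sum of the margins. -/
theorem hleft {K N S : VV n → ℝ} (hW : ContDiff ℝ ∞ W) (hf : Te univ f) (hg : Te univ g)
    (hχ : ContDiff ℝ ∞ χ) (sK : ContDiff ℝ ∞ K) (sN : ContDiff ℝ ∞ N)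
    (hS : Te univ fun z => χ z ^ 2 * S z) :
    (∫ z, χ z ^ 2 * (K z * pe e W f g z ^ 2 + Ee e 1 z * s2 (Yv W f g z) +
      Ee e 1 z * N z ^ 2 * (f z ^ 2 + g z ^ 2) + S z)) =
    (∫ z, χ z ^ 2 * (K z * pe e W f g z ^ 2 + Ee e 1 z * s2 (Yv W f g z))) +
    (∫ z, χ z ^ 2 * (Ee e 1 z * N z ^ 2 * (f z ^ 2 + g z ^ 2))) + ∫ z, χ z ^ 2 * S z := by
  have hO := isOpen_univ (X := VV n)
  have T1 := te1 (e := e) hW hf hg hχ sK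
  have T2 := te22 (e := e) hf hg hχ sN
  rw [← integral_add (te_int0 T1) (te_int0 T2),
    ← integral_add (te_int0 (T1.add hO T2)) (te_int0 hS)]
  refine integral_congr_ae (Filter.Eventually.of_forall fun z => ?_)
  show _ = χ z ^ 2 * (K z * pe e W f g z ^ 2 + Ee e 1 z * s2 (Yv W f g z)) +
    χ z ^ 2 * (Ee e 1 z * N z ^ 2 * (f z ^ 2 + g z ^ 2)) + χ z ^ 2 * S z
  ring

end main

/-- **(A0)**. -/
theorem rowA0 (hP0 : RowP0) : RowA0 := by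
  intro n Cs Cd a₀ B a₁ hCs hCd ha0 hB ha1
  obtain ⟨cp, cc, Cp, hcp, hcp2, hcc, hCp, hP⟩ := hP0 n Cs Cd hCs hCd
  set Lm : ℝ := (1 + B + 1 / a₀) + (1 + B ^ 2) / a₁ with hLm
  set L : ℝ := 2 / a₀ + 1 / 2 with hL
  have hLm0 : 0 < Lm := by positivity
  have hL0 : 0 < L := by positivity
  set C₁ : ℝ := 1 + Cp * Lm * (1 + 32 * L) with hC₁
  have hC1 : 1 ≤ C₁ := by
    have : 0 ≤ Cp * Lm * (1 + 32 * L) := by positivity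
    linarith
  set c₀ : ℝ := min (min cp (a₁ / (4 * (1 + 2 * Cs)))) (min (1 / (16 * (1 + 2 * Cs)))
    (min (1 / 2) (cc * a₀ / 4))) with hc₀
  have hc0 : 0 < c₀ := by positivity
  have m1 : c₀ ≤ cp := (min_le_left _ _).trans (min_le_left _ _)
  have m2 : c₀ * (4 * (1 + 2 * Cs)) ≤ a₁ := by
    rw [← le_div_iff₀ (by positivity)]
    exact (min_le_left _ _).trans (min_le_right _ _)
  have m3 : c₀ * (16 * (1 + 2 * Cs)) ≤ 1 := by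
    rw [← le_div_iff₀ (by positivity)]
    exact (min_le_right _ _).trans (min_le_left _ _)
  have m4 : c₀ ≤ 1 / 2 := (min_le_right _ _).trans ((min_le_right _ _).trans (min_le_left _ _))
  have m5 : c₀ ≤ cc * a₀ / 4 :=
    (min_le_right _ _).trans ((min_le_right _ _).trans (min_le_right _ _))
  refine ⟨c₀, C₁, 1 / (4 + 32 * L), 64, hc0, by linarith, by positivity, by norm_num, ?_⟩
  intro e Φ Φ₁ Φ₂ Φ₃ Φ₄ φ φ₁ φ₂ φ₃ φ₄ I χ f g hf' hs hχ hf hg hz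
  have hO := isOpen_univ (X := VV n)
  have hW : ContDiff ℝ ∞ (Wu e φ Φ : VV n → ℝ) := sm_Wu e hs.sm hf'.sm
  have s1 := sm_der hs.sm hs.d1
  have sN : ContDiff ℝ ∞ fun z : VV n => φ₁ (ht e z) := s1.comp (sm_ht e)
  have sK : ContDiff ℝ ∞ fun z : VV n => φ₂ (ht e z) := (sm_der s1 hs.d2).comp (sm_ht e)
  have T3 : Te univ fun z => χ z ^ 2 * sq4 (Wu e φ Φ) f g z :=
    te_mulL (te_sq4 hW hf hg) (hχ.pow 2)
  have T4 : Te univ fun z => χ z ^ 2 * st (Wu e φ Φ) f g z :=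
    te_mulL (te_st hW hf hg) (hχ.pow 2)
  have j5 : 0 ≤ ∫ z, Ee e 1 z * (gq χ z + gp χ z) * (f z ^ 2 + g z ^ 2) := by
    refine integral_nonneg fun z => ?_
    have h1 : 0 ≤ gq χ z := Finset.sum_nonneg fun i _ => sq_nonneg _
    have h2 : 0 ≤ gp χ z := Finset.sum_nonneg fun i _ => sq_nonneg _
    have h3 := Ee_pos e 1 z
    show 0 ≤ Ee e 1 z * (gq χ z + gp χ z) * (f z ^ 2 + g z ^ 2)
    positivity
  have j3 : 0 ≤ ∫ z, χ z ^ 2 * sq4 (Wu e φ Φ) f g z := by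
    refine integral_nonneg fun z => ?_
    show 0 ≤ χ z ^ 2 * sq4 (Wu e φ Φ) f g z
    unfold sq4
    positivity
  have j1 : 0 ≤ ∫ z, χ z ^ 2 * (φ₂ (ht e z) * pe e (Wu e φ Φ) f g z ^ 2 +
      Ee e 1 z * s2 (Yv (Wu e φ Φ) f g z)) := by
    refine integral_nonneg fun z => ?_
    show 0 ≤ χ z ^ 2 * (φ₂ (ht e z) * pe e (Wu e φ Φ) f g z ^ 2 +
      Ee e 1 z * s2 (Yv (Wu e φ Φ) f g z))
    by_cases hz' : z ∈ tsupport χ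
    · have hEp := Ee_pos e 1 z
      have hK := hs.kp _ (hz z hz').1.1
      have p1 : 0 ≤ s2 (Yv (Wu e φ Φ) f g z) := Finset.sum_nonneg fun i _ => sq_nonneg _
      positivity
    · rw [image_eq_zero_of_notMem_tsupport hz']
      simp
  have hright : (∫ z, χ z ^ 2 * (sq4 (Wu e φ Φ) f g z + st (Wu e φ Φ) f g z)) =
      (∫ z, χ z ^ 2 * sq4 (Wu e φ Φ) f g z) + ∫ z, χ z ^ 2 * st (Wu e φ Φ) f g z := by
    rw [← integral_add (te_int0 T3) (te_int0 T4)]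
    refine integral_congr_ae (Filter.Eventually.of_forall fun z => ?_)
    exact mul_add _ _ _
  rw [hleft hW hf hg hχ sK sN T3, hright]
  have hε0 : 0 < Cp * Lm / C₁ := by positivity
  have hε1 : Cp * Lm / C₁ * (1 + 32 * L) ≤ 1 := by
    rw [div_mul_eq_mul_div, div_le_one (by linarith), hC₁]
    linarith
  exact fin_ar hε0 hL0 hε1 j1 j3 j5 (kA hf' hs hCs hc0 m2 m3 m4 hf hg hχ ha0 hz)
    (k4 hf' hs ha0 hB ha1 hC1 hCp hcc hc0 m1 m4 m5 hf hg hχ hz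
      fun z zZ zt => hP e Φ Φ₁ Φ₂ Φ₃ Φ₄ φ φ₁ φ₂ φ₃ φ₄ I hf' hs z zZ zt f g)

end Vale.Agent.P088.R2.H341.C
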