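import Vale.Agent.P088.R2.H205.C.Spec

/-!
# P088, stage 3, zone C, row A0: region 0 (`N / E` bounded from below)
-/

open MeasureTheory Set
open scoped ContDiff

noncomputable section

namespace Vale.Agent.P088.R2.H341.C

open Vale.Agent.P088.LR Vale.Agent.P088.HY
open Vale.Agent.P088.R2.H961.GW
open Vale.Agent.P088.R2.H644 Vale.Agent.P088.R2.H644.Ch
open Vale.Agent.P088.R2.H205.C

variable {n : ℕ} {W f g χ : VV n → ℝ}

/-! ### Test functions -/

theorem te_int0 {F : VV n → ℝ} (h : Te univ F) : Integrable F :=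
  h.1.continuous.integrable_of_hasCompactSupport h.2.1

theorem te_dd (h : Te univ f) (v : VV n) : Te univ (dd v f) := h.fd isOpen_univ v

theorem sm_dd (h : ContDiff ℝ ∞ f) (v : VV n) : ContDiff ℝ ∞ (dd v f) := by
  have : ContDiff ℝ ∞ (fderiv ℝ f) := h.fderiv_right (m := ∞) le_rfl
  exact this.clm_apply contDiff_const

theorem te_mulL {a : VV n → ℝ} (h : Te univ f) (ha : ContDiff ℝ ∞ a) :
    Te univ fun z => a z * f z := h.mul_left isOpen_univ ha.contDiffOn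

theorem te_Uu (hW : ContDiff ℝ ∞ W) (hf : Te univ f) (i : Fin n) :
    Te univ fun z => Uu W f z i :=
  (hf.mul_right isOpen_univ (sm_dd hW (Pi.single i 1, 0)).contDiffOn).sub isOpen_univ
    (te_dd hf (Pi.single i 1, 0))

theorem te_Uv (hW : ContDiff ℝ ∞ W) (hf : Te univ f) (i : Fin n) :
    Te univ fun z => Uv W f z i :=
  (hf.mul_right isOpen_univ (sm_dd hW (0, Pi.single i 1)).contDiffOn).sub isOpen_univ
    (te_dd hf (0, Pi.single i 1))

theorem te_s2Yv (hW : ContDiff ℝ ∞ W) (hf : Te univ f) (hg : Te univ g) :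
    Te univ fun z => s2 (Yv W f g z) :=
  Te.sum isOpen_univ _ fun i _ => ((te_Uu hW hf i).sub isOpen_univ (te_Uv hW hg i)).sq isOpen_univ

theorem te_pe (hW : ContDiff ℝ ∞ W) (hf : Te univ f) (hg : Te univ g) (e : Fin n) :
    Te univ fun z => pe e W f g z := by
  have h := ((te_Uu hW hf e).add isOpen_univ (te_Uv hW hg e)).cmul isOpen_univ (1 / 2)
  refine h.congr fun z => ?_
  unfold pe; ring

theorem te_sq4 (hW : ContDiff ℝ ∞ W) (hf : Te univ f) (hg : Te univ g) :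
    Te univ (sq4 W f g) := by
  have hv : Sm univ fun _ : VV n => (0 : ℝ) := contDiffOn_const
  have ox := ok_fx (n := n) isOpen_univ
  have oy := ok_fy (n := n) isOpen_univ
  exact ((((ox.tP hv hW.contDiffOn hf).sq isOpen_univ).add isOpen_univ
    ((oy.tP hv hW.contDiffOn hg).sq isOpen_univ)).add isOpen_univ
    ((oy.tP hv hW.contDiffOn hf).sq isOpen_univ)).add isOpen_univ
    ((ox.tP hv hW.contDiffOn hg).sq isOpen_univ)

theorem sm_sumsq {ι : Type*} {s : Finset ι} {F : ι → VV n → ℝ} (h : ∀ i ∈ s, ContDiff ℝ ∞ (F i)) :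
    ContDiff ℝ ∞ fun z => ∑ i ∈ s, F i z := ContDiff.sum h

theorem sm_Lx (hW : ContDiff ℝ ∞ W) : ContDiff ℝ ∞ ((fx n).Λ W) := by
  have : (fx n).Λ W = fun z => ∑ i, dx i (dx i W) z := funext fun z => fx_Λ W z
  rw [this]
  exact ContDiff.sum fun i _ => sm_dd (sm_dd hW _) _

theorem sm_Ly (hW : ContDiff ℝ ∞ W) : ContDiff ℝ ∞ ((fy n).Λ W) := by
  have : (fy n).Λ W = fun z => ∑ i, dy i (dy i W) z := funext fun z => fy_Λ W z
  rw [this]
  exact ContDiff.sum fun i _ => sm_dd (sm_dd hW _) _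

theorem te_lin {A B : Fin n → VV n → ℝ} (hA : ∀ i, ContDiff ℝ ∞ (A i)) (hB : ∀ i, Te univ (B i)) :
    Te univ fun z => ∑ i, A i z * B i z := Te.sum isOpen_univ _ fun i _ => te_mulL (hB i) (hA i)

theorem te_hh (hW : ContDiff ℝ ∞ W) (hf : Te univ f) (hg : Te univ g) :
    Te univ (hh W f g) := by
  have e : ∀ z, hh W f g z = ∑ i, ∑ j, Uu W f z i * Uu W f z j * dx j (dx i W) z +
      2 * ∑ i, ∑ j, Uu W f z i * Uv W g z j * dy j (dx i W) z +
      ∑ i, ∑ j, Uv W g z i * Uv W g z j * dy j (dy i W) z := fun z =>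
    hs_eq hW (Uu W f z, Uv W g z) z
  have hU := te_Uu hW hf
  have hV := te_Uv hW hg
  have t1 : ∀ {A B : Fin n → VV n → ℝ} {C : Fin n → Fin n → VV n → ℝ},
      (∀ i, Te univ (A i)) → (∀ i, Te univ (B i)) → (∀ i j, ContDiff ℝ ∞ (C i j)) →
      Te univ fun z => ∑ i, ∑ j, A i z * B j z * C i j z := fun hA hB hC =>
    Te.sum isOpen_univ _ fun i _ => Te.sum isOpen_univ _ fun j _ =>
      ((hA i).mul_right isOpen_univ (hB j).sm).mul_right isOpen_univ (hC i j).contDiffOn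
  refine Te.congr ?_ e
  exact ((t1 hU hU fun i j => sm_dd (sm_dd hW _) _).add isOpen_univ
    ((t1 hU hV fun i j => sm_dd (sm_dd hW _) _).cmul isOpen_univ 2)).add isOpen_univ
    (t1 hV hV fun i j => sm_dd (sm_dd hW _) _)

theorem te_q0 (hW : ContDiff ℝ ∞ W) (hf : Te univ f) (hg : Te univ g) :
    Te univ (q0 W f g) := by
  have hO := isOpen_univ (X := VV n)
  have hU := te_Uu hW hf
  have hV := te_Uv hW hg
  have hff := hf.sq hO
  have hgg := hg.sq hO
  have hfg := hf.mul_right hO hg.sm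
  have m1 : ∀ (u v : Fin n → VV n), ContDiff ℝ ∞ fun z => ∑ i, ∑ l, dd (u i) (dd (v l) W) z ^ 2 :=
    fun u v => ContDiff.sum fun i _ => ContDiff.sum fun l _ => (sm_dd (sm_dd hW _) _).pow 2
  have a1 := (((te_mulL hff (m1 (fun i => (Pi.single i 1, 0)) fun i => (Pi.single i 1, 0))).add hO
    ((te_mulL hfg (m1 (fun i => (Pi.single i 1, 0)) fun i => (0, Pi.single i 1))).cmul hO 2)).add hO
    (te_mulL hgg (m1 (fun i => (0, Pi.single i 1)) fun i => (0, Pi.single i 1)))).cmul hO (-8)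
  have l1 : ∀ {L : VV n → ℝ} {u : Fin n → VV n} {B : Fin n → VV n → ℝ} {h : VV n → ℝ},
      ContDiff ℝ ∞ L → (∀ i, Te univ (B i)) → Te univ h →
      Te univ fun z => h z * ∑ i, dd (u i) L z * B i z := fun hL hB hh =>
    hh.mul_right hO (te_lin (fun i => sm_dd hL _) hB).sm
  have a2 := ((((l1 (u := fun i => (Pi.single i 1, 0)) (sm_Lx hW) hU hf).add hO
    (l1 (u := fun i => (Pi.single i 1, 0)) (sm_Ly hW) hU hg)).add hO
    (l1 (u := fun i => (0, Pi.single i 1)) (sm_Lx hW) hV hf)).add hO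
    (l1 (u := fun i => (0, Pi.single i 1)) (sm_Ly hW) hV hg)).cmul hO (-8)
  have a3 := (((te_mulL hff (sm_Lx (sm_Lx hW))).add hO
    ((te_mulL hfg (sm_Lx (sm_Ly hW))).cmul hO 2)).add hO
    (te_mulL hgg (sm_Ly (sm_Ly hW)))).cmul hO 2
  refine ((a1.add hO a2).add hO a3).congr fun z => ?_
  unfold q0
  simp only [dx_eq, dy_eq]
  ring

theorem te_st (hW : ContDiff ℝ ∞ W) (hf : Te univ f) (hg : Te univ g) :
    Te univ (st W f g) :=
  ((te_hh hW hf hg).cmul isOpen_univ 8).add isOpen_univ (te_q0 hW hf hg)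

/-! ### The energy of one slot -/

theorem energy {v : VV n} {e : Fin n} (hv : v.1 e + v.2 e = 1) (hW : ContDiff ℝ ∞ W)
    (hχ : ContDiff ℝ ∞ χ) (hf : Te univ f) {N : VV n → ℝ} (hN : ContDiff ℝ ∞ N)
    (h1 : ∀ z ∈ tsupport χ, 0 ≤ N z ∧ N z ≤ 2 * dd v W z)
    (h2 : ∀ z ∈ tsupport χ, 0 ≤ dd v (dd v W) z) :
    ∫ z, χ z ^ 2 * (Ee e 1 z * N z ^ 2 * f z ^ 2) ≤
      8 * (∫ z, χ z ^ 2 * (Ee e 1 z * (f z * dd v W z - dd v f z) ^ 2)) +
      16 * ∫ z, Ee e 1 z * dd v χ z ^ 2 * f z ^ 2 := by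
  have hO := isOpen_univ (X := VV n)
  have hE : ContDiff ℝ ∞ (Ee e 1 : VV n → ℝ) := contDiff_Ee e 1
  have hWv := sm_dd hW v
  have tF : Te univ fun z => f z ^ 2 * (χ z ^ 2 * (Ee e 1 z * dd v W z)) :=
    (hf.sq hO).mul_right hO ((hχ.pow 2).mul (hE.mul hWv)).contDiffOn
  have := haar_VV (n := n)
  have i0 : ∫ z, dd v (fun z => f z ^ 2 * (χ z ^ 2 * (Ee e 1 z * dd v W z))) z = 0 :=
    int_fd hO tF v
  have t1 : Te univ fun z => χ z ^ 2 * (Ee e 1 z * N z ^ 2 * f z ^ 2) :=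
    te_mulL (te_mulL (hf.sq hO) (hE.mul (hN.pow 2))) (hχ.pow 2)
  have t2 : Te univ fun z => χ z ^ 2 * (Ee e 1 z * (f z * dd v W z - dd v f z) ^ 2) :=
    te_mulL (te_mulL (((hf.mul_right hO hWv.contDiffOn).sub hO (te_dd hf v)).sq hO) hE)
      (hχ.pow 2)
  have t3 : Te univ fun z => Ee e 1 z * dd v χ z ^ 2 * f z ^ 2 :=
    te_mulL (hf.sq hO) (hE.mul ((sm_dd hχ v).pow 2))
  have t4 : Te univ (dd v fun z => f z ^ 2 * (χ z ^ 2 * (Ee e 1 z * dd v W z))) := te_dd tF v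
  rw [← integral_const_mul, ← integral_const_mul]
  have key : ∫ z, χ z ^ 2 * (Ee e 1 z * N z ^ 2 * f z ^ 2) ≤
      ∫ z, (8 * (χ z ^ 2 * (Ee e 1 z * (f z * dd v W z - dd v f z) ^ 2)) +
        16 * (Ee e 1 z * dd v χ z ^ 2 * f z ^ 2) +
        8 * dd v (fun z => f z ^ 2 * (χ z ^ 2 * (Ee e 1 z * dd v W z))) z) := by
    refine integral_mono (te_int0 t1) (te_int0 (((t2.cmul hO 8).add hO (t3.cmul hO 16)).add hO
      (t4.cmul hO 8))) fun z => ?_
    have d1 : HD v f (dd v f z) z := ⟨(hf.1.differentiable (by simp)) z, rfl⟩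
    have d2 : HD v χ (dd v χ z) z := ⟨(hχ.differentiable (by simp)) z, rfl⟩
    have d3 : HD v (dd v W) (dd v (dd v W) z) z := ⟨(hWv.differentiable (by simp)) z, rfl⟩
    have d4 : HD v (Ee e 1) (Ee e 1 z * (1 * (v.1 e + v.2 e))) z := HD.Ee v z e 1
    have d5 := (d1.mul d1).mul ((d2.mul d2).mul (d4.mul d3))
    have e5 : dd v (fun z => f z ^ 2 * (χ z ^ 2 * (Ee e 1 z * dd v W z))) z =
        2 * f z * dd v f z * (χ z ^ 2 * (Ee e 1 z * dd v W z)) +
        f z ^ 2 * (2 * χ z * dd v χ z * (Ee e 1 z * dd v W z) +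
          χ z ^ 2 * (Ee e 1 z * dd v W z + Ee e 1 z * dd v (dd v W) z)) := by
      have := d5.e
      simp only [← pow_two] at this
      rw [this, hv]
      ring
    simp only [e5]
    have hEp := Ee_pos e 1 z
    by_cases hz : z ∈ tsupport χ
    · obtain ⟨a1, a2⟩ := h1 z hz
      have a3 := h2 z hz
      set E := Ee e 1 z
      set w := dd v W z
      set p := dd v f z
      set c := dd v χ z
      have b1 : N z ^ 2 ≤ 4 * w ^ 2 := by nlinarith
      have b2 : 0 ≤ w := by linarith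
      have b3 : 0 ≤ χ z ^ 2 * f z ^ 2 * E := by positivity
      have b4 : 0 ≤ 8 * (χ z ^ 2 * E * p ^ 2) := by positivity
      have b5 : 0 ≤ χ z ^ 2 * f z ^ 2 * E * (w + dd v (dd v W) z) :=
        mul_nonneg b3 (by linarith)
      have b6 : χ z ^ 2 * f z ^ 2 * E * N z ^ 2 ≤ χ z ^ 2 * f z ^ 2 * E * (4 * w ^ 2) :=
        mul_le_mul_of_nonneg_left b1 b3
      have b7 : 0 ≤ E * f z ^ 2 * (2 * χ z * w + 4 * c) ^ 2 := by positivity
      nlinarith
    · have c0 : χ z = 0 := image_eq_zero_of_notMem_tsupport hz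
      have c1 : dd v χ z = 0 := by
        have : χ =ᶠ[nhds z] fun _ => 0 := by
          filter_upwards [(isClosed_tsupport χ).isOpen_compl.mem_nhds hz] with w hw
          exact image_eq_zero_of_notMem_tsupport hw
        unfold dd
        rw [this.fderiv_eq]
        simp
      rw [c0, c1]
      simp
  refine key.trans (le_of_eq ?_)
  rw [integral_add (te_int0 ((t2.cmul hO 8).add hO (t3.cmul hO 16))) (te_int0 (t4.cmul hO 8)),
    integral_add (te_int0 (t2.cmul hO 8)) (te_int0 (t3.cmul hO 16))]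
  rw [integral_const_mul (8 : ℝ) (fun z =>
    dd v (fun z => f z ^ 2 * (χ z ^ 2 * (Ee e 1 z * dd v W z))) z), i0]
  ring

end Vale.Agent.P088.R2.H341.C
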