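import Vale.Agent.P088.R2.H341.C.RFs

/-!
# P088, stage 3, zone C, region I: the scalar inequalities of row RF, the slope
-/

noncomputable section

namespace Vale.Agent.P088.R2.H341.RF

variable {Cs N K E r S0 S1 S2 A a b : ℝ}

/-! ### The slope along the level -/

/-- `M = ∑ ν_i ∂_{p_i} W`: bounds. `x = (N + E S0) (1 + μ') |ω|²`, `y` the error. -/
theorem M_bd {cK aC t w y Cy : ℝ} (h : Nb Cs N K E r S0 S1 S2) (hr : Rg N K E r cK aC)
    (ht : -(1 / 4) ≤ t) (ht0 : t ≤ 1 / 4) (hw : 9 / 10 ≤ w) (hw2 : w ≤ 11 / 10) (hCy : 0 ≤ Cy)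
    (hy : |y| ≤ Cy * (E * r)) (h1 : Cy * (6 * cK) ≤ 1 / 16) (h2 : Cs * (6 * cK) ≤ 1) :
    N / 3 ≤ (N + E * S0) * ((1 + t) * w) + y ∧ (N + E * S0) * ((1 + t) * w) + y ≤ 5 * N := by
  have hE : 0 < E := zero_lt_one.trans_le h.E1
  have hN := h.N0
  have hm := h.m0
  have hC := h.C1
  have e1 : Cy * (E * r) ≤ N / 16 := by
    have a1 := mul_le_mul_of_nonneg_left hr.mN hCy
    have a2 := mul_le_mul_of_nonneg_right h1 hN.le
    nlinarith
  have e2 : E * S0 ≤ N := by
    have a0 := mul_le_mul_of_nonneg_left h.s0' hE.le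
    have a1 := mul_le_mul_of_nonneg_left hr.mN (by linarith : 0 ≤ Cs)
    have a2 := mul_le_mul_of_nonneg_right h2 hN.le
    nlinarith
  have e3 : 0 ≤ E * S0 := mul_nonneg hE.le h.s0
  have hy' := abs_le.1 (hy.trans e1)
  have w1 : 7 / 16 ≤ (1 + t) * w := by nlinarith
  have w2 : (1 + t) * w ≤ 2 := by nlinarith
  constructor
  · have := mul_le_mul (by linarith : N ≤ N + E * S0) w1 (by norm_num) (by linarith)
    linarith [hy'.1]
  · have := mul_le_mul (by linarith : N + E * S0 ≤ 2 * N) w2 (by linarith) (by linarith)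
    linarith [hy'.2]

/-- One entry of the second derivative of `W` in the directions of `p`. -/
theorem wpp_bd {a a' aa b b' bb Ca Cb : ℝ} (h : Nb Cs N K E r S0 S1 S2) (ha : |a| ≤ 3)
    (ha' : |a'| ≤ 3) (haa : |aa| ≤ Ca) (hCb : 1 ≤ Cb) (hb : |b| ≤ Cb * r) (hb' : |b'| ≤ Cb * r)
    (hbb : |bb| ≤ Cb * r) :
    |(K + E * S0) * a' * a + (N + E * S0) * aa +
      E * (S1 * (2 * b' * a + 2 * b * a' + 2 * bb) + S2 * (2 * b' * (2 * b)))| ≤
      (27 + Ca) * N + (9 + Ca + 18 * Cb ^ 2) * Cs * (E * r) := by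
  have hE : 0 < E := zero_lt_one.trans_le h.E1
  have hN := h.N0
  have hm := h.m0
  have hC := h.C1
  have hr0 := h.r0
  have hCa : 0 ≤ Ca := (abs_nonneg _).trans haa
  have e0 : 0 ≤ E * S0 := mul_nonneg hE.le h.s0
  have e1 : E * S0 ≤ Cs * (E * r) := by
    have := mul_le_mul_of_nonneg_left h.s0' hE.le
    linarith
  have t1 : |(K + E * S0) * a' * a| ≤ (3 * N + Cs * (E * r)) * 9 := by
    rw [abs_mul, abs_mul, abs_of_nonneg (by linarith [h.K0])]
    have a1 : |a'| * |a| ≤ 3 * 3 := mul_le_mul ha' ha (abs_nonneg _) (by norm_num)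
    have a2 : (K + E * S0) * (|a'| * |a|) ≤ (3 * N + Cs * (E * r)) * (3 * 3) :=
      mul_le_mul (by linarith [h.K1]) a1 (by positivity) (by positivity)
    linarith
  have t2 : |(N + E * S0) * aa| ≤ (N + Cs * (E * r)) * Ca := by
    rw [abs_mul, abs_of_nonneg (by linarith)]
    exact mul_le_mul (by linarith) haa (abs_nonneg _) (by positivity)
  have u1 : |2 * b' * a + 2 * b * a' + 2 * bb| ≤ 14 * Cb * r := by
    have a1 : |2 * b' * a| ≤ 6 * (Cb * r) := by
      rw [abs_mul, abs_mul, abs_of_pos two_pos]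
      have := mul_le_mul hb' ha (abs_nonneg _) (by positivity)
      linarith
    have a2 : |2 * b * a'| ≤ 6 * (Cb * r) := by
      rw [abs_mul, abs_mul, abs_of_pos two_pos]
      have := mul_le_mul hb ha' (abs_nonneg _) (by positivity)
      linarith
    have a3 : |2 * bb| ≤ 2 * (Cb * r) := by
      rw [abs_mul, abs_of_pos two_pos]
      linarith
    have := (abs_add_three (2 * b' * a) (2 * b * a') (2 * bb))
    linarith
  have u2 : |2 * b' * (2 * b)| ≤ 4 * Cb ^ 2 * r := by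
    rw [abs_mul, abs_mul, abs_mul, abs_of_pos two_pos]
    have := mul_le_mul hb' hb (abs_nonneg _) (by positivity)
    have : Cb * r * (Cb * r) ≤ Cb ^ 2 * r := by
      have := mul_le_mul_of_nonneg_left h.r1 (by positivity : 0 ≤ Cb ^ 2 * r)
      nlinarith
    nlinarith
  have t3 : |S1 * (2 * b' * a + 2 * b * a' + 2 * bb) + S2 * (2 * b' * (2 * b))| ≤
      Cs * (14 * Cb * r) + Cs * (4 * Cb ^ 2 * r) := by
    refine (abs_add_le _ _).trans (add_le_add ?_ ?_)
    · rw [abs_mul]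
      exact mul_le_mul h.s1 u1 (abs_nonneg _) (by linarith)
    · rw [abs_mul]
      exact mul_le_mul h.s2 u2 (abs_nonneg _) (by linarith)
  have t4 : |E * (S1 * (2 * b' * a + 2 * b * a' + 2 * bb) + S2 * (2 * b' * (2 * b)))| ≤
      18 * Cb ^ 2 * Cs * (E * r) := by
    rw [abs_mul, abs_of_pos hE]
    have a1 := mul_le_mul_of_nonneg_left t3 hE.le
    have a2 : Cb ≤ Cb ^ 2 := by nlinarith
    have a3 := mul_le_mul_of_nonneg_right a2 (by positivity : 0 ≤ 14 * Cs * (E * r))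
    nlinarith
  have := abs_add_three ((K + E * S0) * a' * a) ((N + E * S0) * aa)
    (E * (S1 * (2 * b' * a + 2 * b * a' + 2 * bb) + S2 * (2 * b' * (2 * b))))
  nlinarith

end Vale.Agent.P088.R2.H341.RF
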