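import Mathlib

/-!
# P088, stage 3, zone C, region I: the scalar inequalities of row RF

`E = e^u`, `N`, `K` the slope and its derivative, `r = r²`, `m = E r`, `S0, S1, S2` the profile.
-/

noncomputable section

namespace Vale.Agent.P088.R2.H341.RF

/-- The numbers of a point. -/
structure Nb (Cs N K E r S0 S1 S2 : ℝ) : Prop where
  C1 : 1 ≤ Cs
  E1 : 1 ≤ E
  N0 : 0 < N
  K0 : 0 ≤ K
  K1 : K ≤ 3 * N
  r0 : 0 ≤ r
  r1 : r ≤ 1
  s0 : 0 ≤ S0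
  s0' : S0 ≤ Cs * r
  s1 : |S1| ≤ Cs
  s2 : |S2| ≤ Cs

variable {Cs N K E r S0 S1 S2 A a b : ℝ}

theorem Nb.m0 (h : Nb Cs N K E r S0 S1 S2) : 0 ≤ E * r := mul_nonneg (zero_le_one.trans h.E1) h.r0

theorem Nb.mE (h : Nb Cs N K E r S0 S1 S2) : E * r ≤ E := by
  have := h.E1
  nlinarith [h.r1]

theorem Nb.m2 (h : Nb Cs N K E r S0 S1 S2) : (E * r) ^ 2 ≤ E * (E * r) := by
  have := mul_le_mul_of_nonneg_right h.mE h.m0
  nlinarith

/-- One entry of the gradient of `W`. -/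
theorem wx_sq (h : Nb Cs N K E r S0 S1 S2) (ha : |a| ≤ 2) (hb : b ^ 2 ≤ A ^ 2 * r) :
    ((N + E * S0) * a + E * (S1 * (2 * b))) ^ 2 ≤
      12 * Cs ^ 2 * (1 + A ^ 2) * (N ^ 2 + E * (E * r)) := by
  have hE : 0 < E := zero_lt_one.trans_le h.E1
  have hC := h.C1
  have hm := h.m0
  have e1 : (E * S0) ^ 2 ≤ Cs ^ 2 * (E * (E * r)) := by
    have h1 : E * S0 ≤ Cs * (E * r) := by
      have := mul_le_mul_of_nonneg_left h.s0' hE.le
      linarith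
    have h2 : 0 ≤ E * S0 := mul_nonneg hE.le h.s0
    calc (E * S0) ^ 2 ≤ (Cs * (E * r)) ^ 2 := pow_le_pow_left₀ h2 h1 2
      _ = Cs ^ 2 * (E * r) ^ 2 := by ring
      _ ≤ _ := mul_le_mul_of_nonneg_left h.m2 (sq_nonneg _)
  have e2 : (E * (S1 * (2 * b))) ^ 2 ≤ 4 * (Cs ^ 2 * A ^ 2 * (E * (E * r))) := by
    have h1 : S1 ^ 2 ≤ Cs ^ 2 := sq_le_sq' (abs_le.1 h.s1).1 (abs_le.1 h.s1).2
    have h2 : S1 ^ 2 * b ^ 2 ≤ Cs ^ 2 * (A ^ 2 * r) := mul_le_mul h1 hb (sq_nonneg _) (sq_nonneg _)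
    have h3 := mul_le_mul_of_nonneg_left h2 (sq_nonneg E)
    nlinarith
  have ha2 : a ^ 2 ≤ 4 := by
    have := sq_le_sq' (abs_le.1 ha).1 (abs_le.1 ha).2
    linarith
  have e3 : ((N + E * S0) * a) ^ 2 ≤ 8 * (N ^ 2 + Cs ^ 2 * (E * (E * r))) := by
    have h1 : (N + E * S0) ^ 2 ≤ 2 * (N ^ 2 + (E * S0) ^ 2) := by nlinarith [sq_nonneg (N - E * S0)]
    have h2 : (N + E * S0) ^ 2 * a ^ 2 ≤ (N + E * S0) ^ 2 * 4 :=
      mul_le_mul_of_nonneg_left ha2 (sq_nonneg _)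
    rw [mul_pow]
    nlinarith
  have e4 : ((N + E * S0) * a + E * (S1 * (2 * b))) ^ 2 ≤
      3 / 2 * ((N + E * S0) * a) ^ 2 + 3 * (E * (S1 * (2 * b))) ^ 2 := by
    nlinarith [sq_nonneg ((N + E * S0) * a - 2 * (E * (S1 * (2 * b))))]
  have hq : 0 ≤ E * (E * r) := mul_nonneg hE.le hm
  have e5 : N ^ 2 ≤ Cs ^ 2 * N ^ 2 := by
    have : 1 ≤ Cs ^ 2 := one_le_pow₀ hC
    nlinarith [sq_nonneg N]
  have e6 : 0 ≤ Cs ^ 2 * A ^ 2 * N ^ 2 := by positivity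
  nlinarith

/-- The denominator of the weight of region I. -/
theorem D_pos (h : Nb Cs N K E r S0 S1 S2) : 0 < E * (1 + E * r) + N ^ 2 := by
  have hE : 0 < E := zero_lt_one.trans_le h.E1
  have := h.m0
  positivity

theorem g_le_E (h : Nb Cs N K E r S0 S1 S2) : E ^ 2 / (E * (1 + E * r) + N ^ 2) ≤ E := by
  have hE : 0 < E := zero_lt_one.trans_le h.E1
  rw [div_le_iff₀ (D_pos h)]
  nlinarith [mul_nonneg hE.le (mul_nonneg hE.le h.m0), mul_nonneg hE.le (sq_nonneg N)]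

/-- `g (N² + E m) ≤ E²`. -/
theorem gF_le (h : Nb Cs N K E r S0 S1 S2) :
    E ^ 2 / (E * (1 + E * r) + N ^ 2) * (N ^ 2 + E * (E * r)) ≤ E ^ 2 := by
  have hE : 0 < E := zero_lt_one.trans_le h.E1
  rw [div_mul_eq_mul_div, div_le_iff₀ (D_pos h)]
  refine mul_le_mul_of_nonneg_left ?_ (sq_nonneg _)
  linarith

theorem t_bd (h : Nb Cs N K E r S0 S1 S2) :
    |2 * a - (E * (1 + 2 * (E * r)) * a + E ^ 2 * (2 * b) + 2 * N * K * a) /
      (E * (1 + E * r) + N ^ 2)| ≤ 10 * |a| + 2 * (E ^ 2 * |b| / (E * (1 + E * r) + N ^ 2)) := by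
  have hE : 0 < E := zero_lt_one.trans_le h.E1
  have hD := D_pos h
  set D := E * (1 + E * r) + N ^ 2 with hDd
  have hm := h.m0
  have hN := h.N0
  have c1 : (E * (1 + 2 * (E * r)) + 2 * N * K) / D ≤ 8 := by
    rw [div_le_iff₀ hD, hDd]
    have : N * K ≤ N * (3 * N) := mul_le_mul_of_nonneg_left h.K1 hN.le
    nlinarith [mul_nonneg hE.le hm]
  have c0 : 0 ≤ (E * (1 + 2 * (E * r)) + 2 * N * K) / D := by
    have := h.K0
    positivity
  have e : 2 * a - (E * (1 + 2 * (E * r)) * a + E ^ 2 * (2 * b) + 2 * N * K * a) / D =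
      2 * a - (E * (1 + 2 * (E * r)) + 2 * N * K) / D * a - 2 * (E ^ 2 * b / D) := by
    field_simp
    ring
  rw [e]
  have t1 := abs_sub (2 * a - (E * (1 + 2 * (E * r)) + 2 * N * K) / D * a) (2 * (E ^ 2 * b / D))
  have t2 := abs_sub (2 * a) ((E * (1 + 2 * (E * r)) + 2 * N * K) / D * a)
  have t3 : |2 * a| = 2 * |a| := by rw [abs_mul, abs_of_pos two_pos]
  have t4 : |(E * (1 + 2 * (E * r)) + 2 * N * K) / D * a| ≤ 8 * |a| := by
    rw [abs_mul, abs_of_nonneg c0]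
    exact mul_le_mul_of_nonneg_right c1 (abs_nonneg _)
  have t5 : |2 * (E ^ 2 * b / D)| = 2 * (E ^ 2 * |b| / D) := by
    rw [abs_mul, abs_of_pos two_pos, abs_div, abs_mul, abs_of_pos hD, abs_of_pos (by positivity)]
  linarith

/-- The logarithmic derivatives of `g` in the directions `x_i`, `y_i`. -/
theorem t_x (h : Nb Cs N K E r S0 S1 S2) (ha : |a| ≤ 2) (hb : b ^ 2 ≤ A ^ 2 * r) :
    (2 * a - (E * (1 + 2 * (E * r)) * a + E ^ 2 * (2 * b) + 2 * N * K * a) /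
      (E * (1 + E * r) + N ^ 2)) ^ 2 ≤ (800 + 8 * A ^ 2) * E := by
  have hE : 0 < E := zero_lt_one.trans_le h.E1
  have hD := D_pos h
  have ht := t_bd (a := a) (b := b) h
  set D := E * (1 + E * r) + N ^ 2 with hDd
  have hm := h.m0
  have k1 : (E ^ 2 * |b| / D) ^ 2 ≤ A ^ 2 * E := by
    rw [div_pow, div_le_iff₀ (by positivity), mul_pow, sq_abs]
    have k2 : E ^ 4 * r ≤ E * D ^ 2 := by
      have k3 : E * (1 + E * r) ≤ D := by
        rw [hDd]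
        nlinarith [sq_nonneg N]
      have k4 : (E * (1 + E * r)) ^ 2 ≤ D ^ 2 := pow_le_pow_left₀ (by positivity) k3 2
      have k5 : E ^ 2 * (E * r) ≤ (E * (1 + E * r)) ^ 2 := by
        rw [mul_pow]
        refine mul_le_mul_of_nonneg_left ?_ (sq_nonneg _)
        nlinarith
      have k6 := mul_le_mul_of_nonneg_left (k5.trans k4) hE.le
      nlinarith
    calc (E ^ 2) ^ 2 * b ^ 2 ≤ (E ^ 2) ^ 2 * (A ^ 2 * r) :=
          mul_le_mul_of_nonneg_left hb (by positivity)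
      _ = A ^ 2 * (E ^ 4 * r) := by ring
      _ ≤ A ^ 2 * (E * D ^ 2) := mul_le_mul_of_nonneg_left k2 (sq_nonneg _)
      _ = _ := by ring
  have k7 : (2 * a - (E * (1 + 2 * (E * r)) * a + E ^ 2 * (2 * b) + 2 * N * K * a) / D) ^ 2 ≤
      (10 * |a| + 2 * (E ^ 2 * |b| / D)) ^ 2 := by
    rw [← sq_abs (2 * a - _)]
    exact pow_le_pow_left₀ (abs_nonneg _) ht 2
  have k8 : 0 ≤ E ^ 2 * |b| / D := by positivity
  have k9 : (10 * |a| + 2 * (E ^ 2 * |b| / D)) ^ 2 ≤ 2 * (10 * |a|) ^ 2 +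
      2 * (2 * (E ^ 2 * |b| / D)) ^ 2 := by
    nlinarith [sq_nonneg (10 * |a| - 2 * (E ^ 2 * |b| / D))]
  have k10 : |a| ^ 2 ≤ 4 := by
    have := pow_le_pow_left₀ (abs_nonneg a) ha 2
    linarith
  have := h.E1
  nlinarith

/-- The logarithmic derivative of `g` in the directions of `p`. -/
theorem t_p (h : Nb Cs N K E r S0 S1 S2) (ha : |a| ≤ 3) (hA : 0 ≤ A) (hb : |b| ≤ A * r) :
    |2 * a - (E * (1 + 2 * (E * r)) * a + E ^ 2 * (2 * b) + 2 * N * K * a) /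
      (E * (1 + E * r) + N ^ 2)| ≤ 30 + 2 * A := by
  have hE : 0 < E := zero_lt_one.trans_le h.E1
  have hD := D_pos h
  have ht := t_bd (a := a) (b := b) h
  set D := E * (1 + E * r) + N ^ 2 with hDd
  have hm := h.m0
  have k1 : E ^ 2 * |b| / D ≤ A := by
    rw [div_le_iff₀ hD]
    have k2 : E ^ 2 * r ≤ D := by
      rw [hDd]
      nlinarith [sq_nonneg N]
    calc E ^ 2 * |b| ≤ E ^ 2 * (A * r) := mul_le_mul_of_nonneg_left hb (sq_nonneg _)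
      _ = A * (E ^ 2 * r) := by ring
      _ ≤ _ := mul_le_mul_of_nonneg_left k2 hA
  linarith

end Vale.Agent.P088.R2.H341.RF
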