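import Vale.Agent.P088.R2.H341.C.RFr

/-!
# P088, stage 3, zone C, region I: the scalar inequalities of row RF, region I
-/

noncomputable section

namespace Vale.Agent.P088.R2.H341.RF

variable {Cs N K E r S0 S1 S2 A a b : ℝ}

/-! ### Region I -/

/-- The relations of region I. -/
structure Rg (N K E r cK aC : ℝ) : Prop where
  t : E * r ≤ 2 * cK * K
  n : N ≤ aC * E
  K1 : K ≤ 3 * N
  cK0 : 0 < cK
  aC0 : 0 < aC

theorem Rg.mN {cK aC : ℝ} (h : Rg N K E r cK aC) : E * r ≤ 6 * cK * N := by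
  have := mul_le_mul_of_nonneg_left h.K1 (by have := h.cK0; positivity : 0 ≤ 2 * cK)
  linarith [h.t]

/-- `A₀ E K ≤ g M²`. -/
theorem aK_le {cK aC A₀ M : ℝ} (h : Nb Cs N K E r S0 S1 S2) (hr : Rg N K E r cK aC)
    (hA : 0 < A₀) (hM : N / 3 ≤ M) (h1 : 81 * A₀ ≤ N) (h2 : 486 * (A₀ * cK) ≤ 1)
    (h3 : 81 * (A₀ * aC) ≤ 1) :
    A₀ * (E * K) ≤ E ^ 2 / (E * (1 + E * r) + N ^ 2) * M ^ 2 := by
  have hE : 0 < E := zero_lt_one.trans_le h.E1
  have hD := D_pos h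
  have hN := h.N0
  have hK := h.K0
  have hm := h.m0
  have hM2 : N ^ 2 / 9 ≤ M ^ 2 := by
    have := pow_le_pow_left₀ (by positivity) hM 2
    linarith
  have key : A₀ * (E * K) * (E * (1 + E * r) + N ^ 2) ≤ E ^ 2 * (N ^ 2 / 9) := by
    have k1 : 27 * (A₀ * K) ≤ N ^ 2 := by
      have : A₀ * K ≤ A₀ * (3 * N) := mul_le_mul_of_nonneg_left h.K1 hA.le
      nlinarith
    have k2 : 27 * (A₀ * K) * (E * r) ≤ N ^ 2 := by
      have a1 : A₀ * K ≤ A₀ * (3 * N) := mul_le_mul_of_nonneg_left h.K1 hA.le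
      have a2 : A₀ * K * (E * r) ≤ A₀ * (3 * N) * (6 * cK * N) :=
        mul_le_mul a1 hr.mN hm (by positivity)
      have a3 : 486 * (A₀ * cK) * N ^ 2 ≤ 1 * N ^ 2 :=
        mul_le_mul_of_nonneg_right h2 (sq_nonneg _)
      nlinarith
    have k3 : 27 * (A₀ * K) ≤ E := by
      have a1 : A₀ * K ≤ A₀ * (3 * N) := mul_le_mul_of_nonneg_left h.K1 hA.le
      have a2 : A₀ * N ≤ A₀ * (aC * E) := mul_le_mul_of_nonneg_left hr.n hA.le
      have a3 : 81 * (A₀ * aC) * E ≤ 1 * E := mul_le_mul_of_nonneg_right h3 hE.le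
      nlinarith
    have j1 := mul_le_mul_of_nonneg_left k1 (sq_nonneg E)
    have j2 := mul_le_mul_of_nonneg_left k2 (sq_nonneg E)
    have j3 := mul_le_mul_of_nonneg_right k3 (mul_nonneg hE.le (sq_nonneg N))
    nlinarith
  rw [div_mul_eq_mul_div, le_div_iff₀ hD]
  exact key.trans (mul_le_mul_of_nonneg_left hM2 (sq_nonneg _))

/-- `a (N² + E m) (E (1 + m) + N²) ≤ E² N²`. -/
theorem aF_le {cK aC a : ℝ} (h : Nb Cs N K E r S0 S1 S2) (hr : Rg N K E r cK aC) (ha : 0 < a)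
    (hN1 : 1 ≤ N) (h1 : 16 * a ≤ N) (h2 : 16 * a * (6 * cK) ≤ 1) (h2' : 6 * cK ≤ 1)
    (h3 : 16 * a * aC ≤ 1) (h3' : aC ≤ 1) :
    a * (N ^ 2 + E * (E * r)) * (E * (1 + E * r) + N ^ 2) ≤ E ^ 2 * N ^ 2 := by
  have hE : 0 < E := zero_lt_one.trans_le h.E1
  have hN := h.N0
  have hm := h.m0
  have hmN := hr.mN
  set m := E * r
  have hc := hr.cK0
  have hC := hr.aC0
  have NE : N ≤ E := by
    have := mul_le_mul_of_nonneg_right h3' hE.le
    linarith [hr.n]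
  have b1 : 16 * a * m ≤ N := by
    have a1 : 16 * a * m ≤ 16 * a * (6 * cK * N) := mul_le_mul_of_nonneg_left hmN (by positivity)
    have a2 : 16 * a * (6 * cK) * N ≤ 1 * N := mul_le_mul_of_nonneg_right h2 hN.le
    nlinarith
  have b2 : m ≤ N := by nlinarith
  have b3 : 16 * a * m * m ≤ N ^ 2 := by
    have := mul_le_mul b1 b2 hm hN.le
    nlinarith
  have b4 : 16 * a * N ≤ E := by
    have a1 : 16 * a * N ≤ 16 * a * (aC * E) := mul_le_mul_of_nonneg_left hr.n (by positivity)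
    have a2 : 16 * a * aC * E ≤ 1 * E := mul_le_mul_of_nonneg_right h3 hE.le
    nlinarith
  have b5 : N ≤ N ^ 2 := by nlinarith
  have p1 : 16 * (a * N ^ 2 * E) ≤ E ^ 2 * N ^ 2 := by
    have := mul_le_mul_of_nonneg_right (h1.trans NE) (by positivity : 0 ≤ E * N ^ 2)
    nlinarith
  have p2 : 16 * (a * N ^ 2 * (E * m)) ≤ E ^ 2 * N ^ 2 := by
    have := mul_le_mul_of_nonneg_right (b1.trans NE) (by positivity : 0 ≤ E * N ^ 2)
    nlinarith
  have p3 : 16 * (a * N ^ 2 * N ^ 2) ≤ E ^ 2 * N ^ 2 := by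
    have a1 : 16 * a * N * N ≤ E * E := mul_le_mul b4 NE hN.le hE.le
    have := mul_le_mul_of_nonneg_right a1 (sq_nonneg N)
    nlinarith
  have p4 : 16 * (a * (E * m) * E) ≤ E ^ 2 * N ^ 2 := by
    have := mul_le_mul_of_nonneg_right (b1.trans b5) (sq_nonneg E)
    nlinarith
  have p5 : 16 * (a * (E * m) * (E * m)) ≤ E ^ 2 * N ^ 2 := by
    have := mul_le_mul_of_nonneg_right b3 (sq_nonneg E)
    nlinarith
  have p6 : 16 * (a * (E * m) * N ^ 2) ≤ E ^ 2 * N ^ 2 := by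
    have := mul_le_mul_of_nonneg_right (b1.trans NE) (by positivity : 0 ≤ E * N ^ 2)
    nlinarith
  have p0 : 0 ≤ E ^ 2 * N ^ 2 := by positivity
  nlinarith

/-- `A (F + F' + 1) ≤ g M²` if `F + F' + 1 ≤ c (N² + E m)`. -/
theorem aF_le' {cK aC A₀ c F M : ℝ} (h : Nb Cs N K E r S0 S1 S2) (hr : Rg N K E r cK aC)
    (hA : 0 < A₀) (hc : 0 < c) (hM : N / 3 ≤ M) (hF : F ≤ c * (N ^ 2 + E * (E * r)))
    (hN1 : 1 ≤ N) (h1 : 16 * (9 * A₀ * c) ≤ N) (h2 : 16 * (9 * A₀ * c) * (6 * cK) ≤ 1)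
    (h2' : 6 * cK ≤ 1) (h3 : 16 * (9 * A₀ * c) * aC ≤ 1) (h3' : aC ≤ 1) :
    A₀ * F ≤ E ^ 2 / (E * (1 + E * r) + N ^ 2) * M ^ 2 := by
  have hD := D_pos h
  have hM2 : N ^ 2 / 9 ≤ M ^ 2 := by
    have hN := h.N0
    have := pow_le_pow_left₀ (by positivity) hM 2
    linarith
  have key := aF_le h hr (a := 9 * A₀ * c) (by positivity) hN1 h1 h2 h2' h3 h3'
  rw [div_mul_eq_mul_div, le_div_iff₀ hD]
  have k1 : A₀ * F * (E * (1 + E * r) + N ^ 2) ≤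
      A₀ * (c * (N ^ 2 + E * (E * r))) * (E * (1 + E * r) + N ^ 2) :=
    mul_le_mul_of_nonneg_right (mul_le_mul_of_nonneg_left hF hA.le) hD.le
  have k2 := mul_le_mul_of_nonneg_left hM2 (sq_nonneg E)
  nlinarith

/-- `A (F + F' + 1) ≤ E²`. -/
theorem aE_le {cK aC A₀ c F : ℝ} (h : Nb Cs N K E r S0 S1 S2) (hr : Rg N K E r cK aC)
    (hA : 0 < A₀) (hc : 0 < c) (hF : F ≤ c * (N ^ 2 + E * (E * r)))
    (h2' : 6 * cK ≤ 1) (h3 : 16 * (9 * A₀ * c) * aC ≤ 1) (h3' : aC ≤ 1) :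
    A₀ * F ≤ E ^ 2 := by
  have hE : 0 < E := zero_lt_one.trans_le h.E1
  have hN := h.N0
  have hm := h.m0
  have hmN := hr.mN
  have hcK := hr.cK0
  have haC := hr.aC0
  have b2 : E * r ≤ N := by nlinarith
  have k1 : N ^ 2 ≤ aC * E ^ 2 := by
    have a1 : N ^ 2 ≤ (aC * E) ^ 2 := pow_le_pow_left₀ hN.le hr.n 2
    have a2 : aC * aC ≤ aC * 1 := mul_le_mul_of_nonneg_left h3' haC.le
    have a3 := mul_le_mul_of_nonneg_right a2 (sq_nonneg E)
    nlinarith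
  have k2 : E * (E * r) ≤ aC * E ^ 2 := by
    have := mul_le_mul_of_nonneg_left (b2.trans hr.n) hE.le
    nlinarith
  have k3 : A₀ * F ≤ A₀ * (c * (2 * (aC * E ^ 2))) := by
    refine mul_le_mul_of_nonneg_left (hF.trans ?_) hA.le
    exact mul_le_mul_of_nonneg_left (by linarith) hc.le
  have k4 : A₀ * c * aC ≤ 1 / 144 := by nlinarith
  have k5 := mul_le_mul_of_nonneg_right k4 (sq_nonneg E)
  nlinarith [sq_nonneg E]

end Vale.Agent.P088.R2.H341.RF
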